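import Mathlib

/-!
Relative homology vanishing for pairs of subcomplexes of a simplicial set, in terms of explicit chains.
-/

open CategoryTheory Simplicial Opposite

universe u v

namespace Vale.Agent.P263.GEN

variable (k : Type v) [CommRing k]

/-- simplicial chains -/
abbrev Ch (X : SSet.{u}) (n : ℕ) : Type (max u v) := (X _⦋n⦌) →₀ k

/-- the chain map induced by a simplicial map -/
noncomputable def chm {X Y : SSet.{u}} (f : X ⟶ Y) (n : ℕ) : Ch k X n →ₗ[k] Ch k Y n :=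
  Finsupp.lmapDomain k k (fun x => f.app (op ⦋n⦌) x)

/-- the boundary -/
noncomputable def bd (X : SSet.{u}) (n : ℕ) : Ch k X (n + 1) →ₗ[k] Ch k X n :=
  ∑ i : Fin (n + 2), ((-1 : k) ^ (i : ℕ)) • Finsupp.lmapDomain k k (fun x => X.δ i x)

variable {k}

@[simp] lemma chm_single {X Y : SSet.{u}} (f : X ⟶ Y) (n : ℕ) (x : X _⦋n⦌) (a : k) :
    chm k f n (Finsupp.single x a) = Finsupp.single (f.app (op ⦋n⦌) x) a := by
  simp [chm, Finsupp.lmapDomain_apply, Finsupp.mapDomain_single]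

lemma bd_single (X : SSet.{u}) (n : ℕ) (x : X _⦋n + 1⦌) (a : k) :
    bd k X n (Finsupp.single x a) =
      ∑ i : Fin (n + 2), Finsupp.single (X.δ i x) ((-1 : k) ^ (i : ℕ) * a) := by
  simp [bd, Finsupp.lmapDomain_apply, Finsupp.mapDomain_single]

lemma bd_bd (X : SSet.{u}) (n : ℕ) (c : Ch k X (n + 2)) : bd k X n (bd k X (n + 1) c) = 0 := by
  induction c using Finsupp.induction_linear with
  | zero => simp
  | add f g hf hg => rw [map_add, map_add, hf, hg, add_zero]
  | single x a =>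
    rw [bd_single, map_sum]
    simp only [bd_single]
    rw [Finset.sum_comm, ← Finset.sum_product']
    let P := Fin (n + 2) × Fin (n + 3)
    let S : Finset P := Finset.univ.filter (fun ij : P => (ij.2 : ℕ) ≤ (ij.1 : ℕ))
    rw [Finset.univ_product_univ, ← Finset.sum_add_sum_compl S, ← eq_neg_iff_add_eq_zero,
      ← Finset.sum_neg_distrib]
    let φ : ∀ ij : P, ij ∈ S → P := fun ij hij =>
      (Fin.castLT ij.2 (lt_of_le_of_lt (Finset.mem_filter.mp hij).right (Fin.is_lt ij.1)),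
        ij.1.succ)
    apply Finset.sum_bij φ
    · intro ij hij
      simp_rw [S, φ, Finset.compl_filter, Finset.mem_filter_univ, Fin.val_succ,
        Fin.val_castLT] at hij ⊢
      lia
    · rintro ⟨i, j⟩ hij ⟨i', j'⟩ hij' h
      rw [Prod.mk_inj]
      exact ⟨by simpa [φ] using! congr_arg Prod.snd h,
        by simpa [φ, Fin.castSucc_castLT] using! congr_arg Fin.castSucc (congr_arg Prod.fst h)⟩
    · rintro ⟨i', j'⟩ hij'
      simp_rw [S, Finset.compl_filter, Finset.mem_filter_univ, not_le] at hij'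
      refine ⟨(j'.pred <| ?_, Fin.castSucc i'), ?_, ?_⟩
      · rintro rfl
        simp only [Fin.val_zero, not_lt_zero] at hij'
      · simpa [S] using! Nat.le_sub_one_of_lt hij'
      · simp only [φ, Fin.castLT_castSucc, Fin.succ_pred]
    · rintro ⟨i, j⟩ hij
      dsimp only
      rw [SSet.δ_comp_δ''_apply (by simpa [S] using! hij)]
      rw [← Finsupp.single_neg]
      congr 1
      simp only [φ, Fin.val_succ, Fin.val_castLT]
      ring

lemma bd_chm {X Y : SSet.{u}} (f : X ⟶ Y) (n : ℕ) (c : Ch k X (n + 1)) :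
    bd k Y n (chm k f (n + 1) c) = chm k f n (bd k X n c) := by
  induction c using Finsupp.induction_linear with
  | zero => simp
  | add f g hf hg => simp only [map_add, hf, hg]
  | single x a =>
    rw [bd_single, map_sum, chm_single, bd_single]
    refine Finset.sum_congr rfl fun i _ => ?_
    rw [chm_single]
    congr 1
    exact (ConcreteCategory.congr_hom (SimplicialObject.δ_naturality f i) x).symm

/-- the boundary, with the convention that it is zero in degree `0` -/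
noncomputable def D (X : SSet.{u}) (n : ℕ) : Ch k X n →ₗ[k] Ch k X (n - 1) :=
  match n with
  | 0 => 0
  | n + 1 => bd k X n

/-- chains supported on a subcomplex -/
noncomputable def spt {X : SSet.{u}} (U : X.Subcomplex) (n : ℕ) : Submodule k (Ch k X n) :=
  Finsupp.supported k k (U.obj (op ⦋n⦌))


@[simp] lemma D_succ (X : SSet.{u}) (n : ℕ) : (D X (n + 1) : Ch k X (n + 1) →ₗ[k] _) = bd k X n :=
  rfl

@[simp] lemma D_zero (X : SSet.{u}) : (D X 0 : Ch k X 0 →ₗ[k] _) = 0 := rfl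

lemma D_bd (X : SSet.{u}) (n : ℕ) (c : Ch k X (n + 1)) : D X n (bd k X n c) = 0 := by
  cases n with
  | zero => simp
  | succ n => exact bd_bd X n c

lemma D_chm {X Y : SSet.{u}} (f : X ⟶ Y) (n : ℕ) (c : Ch k X n) :
    D Y n (chm k f n c) = chm k f (n - 1) (D X n c) := by
  cases n with
  | zero => simp
  | succ n => exact bd_chm f n c

lemma mem_spt {X : SSet.{u}} {U : X.Subcomplex} {n : ℕ} {c : Ch k X n} :
    c ∈ spt U n ↔ ∀ x ∈ c.support, x ∈ U.obj (op ⦋n⦌) := by
  simp only [spt, Finsupp.mem_supported, Set.subset_def, Finset.mem_coe]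

lemma mem_spt' {X : SSet.{u}} {U : X.Subcomplex} {n : ℕ} {c : Ch k X n} :
    c ∈ spt U n ↔ ∀ x, x ∉ U.obj (op ⦋n⦌) → c x = 0 := by
  rw [mem_spt]
  constructor
  · intro h x hx
    by_contra h0
    exact hx (h x (Finsupp.mem_support_iff.2 h0))
  · intro h x hx
    by_contra h0
    exact (Finsupp.mem_support_iff.1 hx) (h x h0)

lemma spt_mono {X : SSet.{u}} {U V : X.Subcomplex} (h : U ≤ V) (n : ℕ) :
    (spt U n : Submodule k (Ch k X n)) ≤ spt V n := by
  intro c hc
  rw [mem_spt] at hc ⊢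
  exact fun x hx => h _ (hc x hx)

lemma spt_top {X : SSet.{u}} (n : ℕ) (c : Ch k X n) : c ∈ spt (⊤ : X.Subcomplex) n := by
  rw [mem_spt]; intro x _; trivial

lemma single_mem_spt {X : SSet.{u}} {U : X.Subcomplex} {n : ℕ} {x : X _⦋n⦌}
    (hx : x ∈ U.obj (op ⦋n⦌)) (a : k) : (Finsupp.single x a : Ch k X n) ∈ spt U n := by
  classical
  rw [mem_spt']
  intro y hy
  rw [Finsupp.single_apply]
  split_ifs with h
  · subst h; exact absurd hx hy
  · rfl

lemma spt_induction {X : SSet.{u}} {U : X.Subcomplex} {n : ℕ} {P : Ch k X n → Prop}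
    (h0 : P 0) (ha : ∀ c d, P c → P d → P (c + d))
    (hs : ∀ x ∈ U.obj (op ⦋n⦌), ∀ a : k, P (Finsupp.single x a)) {c : Ch k X n}
    (hc : c ∈ spt U n) : P c := by
  classical
  rw [mem_spt] at hc
  rw [← Finsupp.sum_single c, Finsupp.sum]
  have : ∀ s : Finset (X _⦋n⦌), (∀ x ∈ s, x ∈ U.obj (op ⦋n⦌)) →
      P (∑ x ∈ s, Finsupp.single x (c x)) := by
    intro s
    induction s using Finset.induction_on with
    | empty => intro _; simpa using h0
    | insert a s ha' ih =>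
      intro h
      rw [Finset.sum_insert ha']
      exact ha _ _ (hs _ (h a (Finset.mem_insert_self _ _)) _)
        (ih fun x hx => h x (Finset.mem_insert_of_mem hx))
  exact this _ hc

lemma bd_mem_spt {X : SSet.{u}} {U : X.Subcomplex} {n : ℕ} {c : Ch k X (n + 1)}
    (hc : c ∈ spt U (n + 1)) : bd k X n c ∈ spt U n := by
  refine spt_induction (P := fun c => bd k X n c ∈ spt U n) (by simp)
    (fun c d hc hd => ?_) (fun x hx a => ?_) hc
  · rw [map_add]; exact Submodule.add_mem _ hc hd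
  · rw [bd_single]
    refine Submodule.sum_mem _ fun i _ => single_mem_spt ?_ _
    exact U.map _ hx

lemma D_mem_spt {X : SSet.{u}} {U : X.Subcomplex} {n : ℕ} {c : Ch k X n}
    (hc : c ∈ spt U n) : D X n c ∈ spt U (n - 1) := by
  cases n with
  | zero => simp
  | succ n => exact bd_mem_spt hc

lemma chm_mem_spt {X Y : SSet.{u}} (f : X ⟶ Y) {U : X.Subcomplex} {U' : Y.Subcomplex}
    (h : U ≤ U'.preimage f) {n : ℕ} {c : Ch k X n} (hc : c ∈ spt U n) :
    chm k f n c ∈ spt U' n := by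
  refine spt_induction (P := fun c => chm k f n c ∈ spt U' n) (by simp)
    (fun c d hc hd => ?_) (fun x hx a => ?_) hc
  · rw [map_add]; exact Submodule.add_mem _ hc hd
  · change chm k f n (Finsupp.single x a) ∈ spt U' n
    rw [chm_single]
    exact single_mem_spt (U := U') (show f.app (op ⦋n⦌) x ∈ U'.obj (op ⦋n⦌) from h _ hx) a

lemma chm_comp {X Y Z : SSet.{u}} (f : X ⟶ Y) (g : Y ⟶ Z) (n : ℕ) (c : Ch k X n) :
    chm k (f ≫ g) n c = chm k g n (chm k f n c) := by
  induction c using Finsupp.induction_linear with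
  | zero => simp
  | add f g hf hg => simp only [map_add, hf, hg]
  | single x a => simp

lemma chm_id {X : SSet.{u}} (n : ℕ) (c : Ch k X n) : chm k (𝟙 X) n c = c := by
  induction c using Finsupp.induction_linear with
  | zero => simp
  | add f g hf hg => simp only [map_add, hf, hg]
  | single x a => simp

variable (k) in
/-- `RZ k U V n`: the relative homology `H_n(V, U; k)` vanishes (used for `U ≤ V`). -/
def RZ {X : SSet.{u}} (U V : X.Subcomplex) (n : ℕ) : Prop :=
  ∀ c : Ch k X n, c ∈ spt V n → D X n c ∈ spt U (n - 1) →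
    ∃ b : Ch k X (n + 1), b ∈ spt V (n + 1) ∧ c - bd k X n b ∈ spt U n

section

variable {X Y : SSet.{u}} {U V W : X.Subcomplex} {n : ℕ}

lemma RZ.refl (U : X.Subcomplex) (n : ℕ) : RZ k U U n := fun c hc _ => ⟨0, by simp, by simpa⟩

lemma RZ.trans (hUV : U ≤ V) (h1 : RZ k U V n) (h2 : RZ k V W n) (hVW : V ≤ W) : RZ k U W n := by
  intro c hc hD
  obtain ⟨b, hb, hcb⟩ := h2 c hc (spt_mono hUV _ hD)
  obtain ⟨b', hb', hcb'⟩ := h1 (c - bd k X n b) hcb (by
    rw [map_sub, D_bd, sub_zero]; exact hD)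
  refine ⟨b + b', Submodule.add_mem _ hb (spt_mono hVW _ hb'), ?_⟩
  rw [map_add]
  convert hcb' using 1
  abel

lemma RZ.of_right (hUV : U ≤ V) (h1 : RZ k U W n) (h2 : RZ k V W (n + 1)) (hVW : V ≤ W) :
    RZ k U V n := by
  intro c hc hD
  obtain ⟨b, hb, hcb⟩ := h1 c (spt_mono hVW _ hc) hD
  obtain ⟨b', hb', hcb'⟩ := h2 b hb (by
    change bd k X n b ∈ spt V n
    have : bd k X n b = c - (c - bd k X n b) := by abel
    rw [this]
    exact Submodule.sub_mem _ hc (spt_mono hUV _ hcb))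
  refine ⟨b - bd k X (n + 1) b', hcb', ?_⟩
  rw [map_sub, bd_bd, sub_zero]
  exact hcb

lemma RZ.of_left (hUV : U ≤ V) (h1 : RZ k U W n) (h2 : ∀ m, m + 1 = n → RZ k U V m)
    (hVW : V ≤ W) : RZ k V W n := by
  intro c hc hD
  cases n with
  | zero =>
    obtain ⟨b, hb, hcb⟩ := h1 c hc (by simp)
    exact ⟨b, hb, spt_mono hUV _ hcb⟩
  | succ m =>
    obtain ⟨b, hb, hcb⟩ := h2 m rfl (D X (m + 1) c) hD (by
      change D X m (bd k X m c) ∈ _
      rw [D_bd]; exact Submodule.zero_mem _)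
    obtain ⟨b', hb', hcb'⟩ := h1 (c - b) (Submodule.sub_mem _ hc (spt_mono hVW _ hb)) (by
      rw [map_sub]; exact hcb)
    refine ⟨b', hb', ?_⟩
    have : c - bd k X (m + 1) b' = b + (c - b - bd k X (m + 1) b') := by abel
    rw [this]
    exact Submodule.add_mem _ hb (spt_mono hUV _ hcb')

/-- directed unions -/
lemma RZ.iSup {ι : Type*} [Nonempty ι] {V : ι → X.Subcomplex} (hV : Directed (· ≤ ·) V)
    (h : ∀ i, RZ k U (V i) n) : RZ k U (⨆ i, V i) n := by
  classical
  intro c hc hD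
  have key : ∀ s : Finset (X _⦋n⦌), (∀ x ∈ s, x ∈ (⨆ i, V i).obj (op ⦋n⦌)) →
      ∃ i, ∀ x ∈ s, x ∈ (V i).obj (op ⦋n⦌) := by
    intro s
    induction s using Finset.induction_on with
    | empty => intro _; exact ⟨Classical.arbitrary ι, by simp⟩
    | insert a s _ ih =>
      intro hs
      obtain ⟨i, hi⟩ := ih fun x hx => hs x (Finset.mem_insert_of_mem hx)
      have ha := hs a (Finset.mem_insert_self _ _)
      rw [Subfunctor.iSup_obj, Set.mem_iUnion] at ha
      obtain ⟨j, hj⟩ := ha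
      obtain ⟨l, hil, hjl⟩ := hV i j
      refine ⟨l, fun x hx => ?_⟩
      rcases Finset.mem_insert.1 hx with rfl | hx
      · exact hjl _ hj
      · exact hil _ (hi x hx)
  obtain ⟨i, hi⟩ := key c.support (mem_spt.1 hc)
  obtain ⟨b, hb, hcb⟩ := h i c (mem_spt.2 hi) hD
  exact ⟨b, spt_mono (le_iSup V i) _ hb, hcb⟩

/-- retracts -/
lemma RZ.retract {U' V' : Y.Subcomplex} (s : X ⟶ Y) (r : Y ⟶ X)
    (hsr : s ≫ r = 𝟙 X) (hsV : V ≤ V'.preimage s) (hsU : U ≤ U'.preimage s)
    (hrV : V' ≤ V.preimage r) (hrU : U' ≤ U.preimage r) (h : RZ k U' V' n) : RZ k U V n := by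
  intro c hc hD
  obtain ⟨b, hb, hcb⟩ := h (chm k s n c) (chm_mem_spt s hsV hc) (by
    rw [D_chm]; exact chm_mem_spt s hsU hD)
  refine ⟨chm k r (n + 1) b, chm_mem_spt r hrV hb, ?_⟩
  have e : c = chm k r n (chm k s n c) := by rw [← chm_comp, hsr, chm_id]
  rw [e, bd_chm, ← map_sub]
  exact chm_mem_spt r hrU hcb


/-- a map inducing bijections `V ∖ U → V' ∖ U'` -/
structure RelBij (f : X ⟶ Y) (U V : X.Subcomplex) (U' V' : Y.Subcomplex) : Prop where
  hU : U ≤ U'.preimage f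
  hV : V ≤ V'.preimage f
  refl : ∀ (n : ℕ) (x : X _⦋n⦌), x ∈ V.obj (op ⦋n⦌) → f.app (op ⦋n⦌) x ∈ U'.obj (op ⦋n⦌) →
    x ∈ U.obj (op ⦋n⦌)
  inj : ∀ (n : ℕ) (x y : X _⦋n⦌), x ∈ V.obj (op ⦋n⦌) → y ∈ V.obj (op ⦋n⦌) →
    x ∉ U.obj (op ⦋n⦌) → y ∉ U.obj (op ⦋n⦌) → f.app (op ⦋n⦌) x = f.app (op ⦋n⦌) y → x = y
  surj : ∀ (n : ℕ) (y : Y _⦋n⦌), y ∈ V'.obj (op ⦋n⦌) → y ∉ U'.obj (op ⦋n⦌) →
    ∃ x, x ∈ V.obj (op ⦋n⦌) ∧ f.app (op ⦋n⦌) x = y

lemma RelBij.mem_spt_of {f : X ⟶ Y} {U' V' : Y.Subcomplex} (h : RelBij f U V U' V') {n : ℕ}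
    {c : Ch k X n} (hc : c ∈ spt V n) (hf : chm k f n c ∈ spt U' n) : c ∈ spt U n := by
  classical
  rw [mem_spt'] at hf ⊢
  intro x hx
  by_cases hxV : x ∈ V.obj (op ⦋n⦌)
  · have hfx : f.app (op ⦋n⦌) x ∉ U'.obj (op ⦋n⦌) := fun h' => hx (h.refl n x hxV h')
    have := hf _ hfx
    rw [chm, Finsupp.lmapDomain_apply, Finsupp.mapDomain, Finsupp.sum_apply,
      Finsupp.sum_eq_single x] at this
    · simpa using this
    · intro y hy hyx
      rw [Finsupp.single_apply, if_neg]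
      intro e
      have hyV : y ∈ V.obj (op ⦋n⦌) := by
        by_contra h0
        exact hy ((mem_spt'.1 hc) y h0)
      have hyU : y ∉ U.obj (op ⦋n⦌) := by
        intro hyU
        apply hfx
        rw [← e]
        exact h.hU _ hyU
      exact hyx (h.inj n y x hyV hxV hyU hx e)
    · intro _; simp
  · exact (mem_spt'.1 hc) x hxV

lemma RelBij.exists_lift {f : X ⟶ Y} {U' V' : Y.Subcomplex} (h : RelBij f U V U' V') {n : ℕ}
    {c : Ch k Y n} (hc : c ∈ spt V' n) :
    ∃ b : Ch k X n, b ∈ spt V n ∧ chm k f n b - c ∈ spt U' n := by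
  refine spt_induction (P := fun c => ∃ b : Ch k X n, b ∈ spt V n ∧ chm k f n b - c ∈ spt U' n)
    ⟨0, by simp, by simp⟩ ?_ ?_ hc
  · rintro c d ⟨b, hb, hb'⟩ ⟨b2, hb2, hb2'⟩
    refine ⟨b + b2, Submodule.add_mem _ hb hb2, ?_⟩
    rw [map_add]
    convert Submodule.add_mem _ hb' hb2' using 1
    abel
  · intro y hy a
    by_cases hyU : y ∈ U'.obj (op ⦋n⦌)
    · refine ⟨0, by simp, ?_⟩
      rw [map_zero, zero_sub]
      exact Submodule.neg_mem _ (single_mem_spt hyU a)
    · obtain ⟨x, hx, rfl⟩ := h.surj n y hy hyU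
      exact ⟨Finsupp.single x a, single_mem_spt hx a, by rw [chm_single, sub_self]; simp⟩

lemma RelBij.rz_iff {f : X ⟶ Y} {U' V' : Y.Subcomplex} (h : RelBij f U V U' V') (n : ℕ) :
    RZ k U V n ↔ RZ k U' V' n := by
  constructor
  · intro hz c' hc' hD'
    obtain ⟨c, hc, hcc⟩ := h.exists_lift hc'
    have h1 : D X n c ∈ spt U (n - 1) := by
      apply h.mem_spt_of (D_mem_spt hc)
      rw [← D_chm]
      have : chm k f n c = c' + (chm k f n c - c') := by abel
      rw [this, map_add]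
      exact Submodule.add_mem _ hD' (D_mem_spt hcc)
    obtain ⟨b, hb, hcb⟩ := hz c hc h1
    refine ⟨chm k f (n + 1) b, chm_mem_spt f h.hV hb, ?_⟩
    rw [bd_chm]
    have : c' - chm k f n (bd k X n b) = chm k f n (c - bd k X n b) - (chm k f n c - c') := by
      rw [map_sub]; abel
    rw [this]
    exact Submodule.sub_mem _ (chm_mem_spt f h.hU hcb) hcc
  · intro hz c hc hD
    obtain ⟨b', hb', hcb'⟩ := hz (chm k f n c) (chm_mem_spt f h.hV hc) (by
      rw [D_chm]; exact chm_mem_spt f h.hU hD)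
    obtain ⟨b, hb, hbb⟩ := h.exists_lift hb'
    refine ⟨b, hb, ?_⟩
    apply h.mem_spt_of (Submodule.sub_mem _ hc (bd_mem_spt hb))
    rw [map_sub, ← bd_chm]
    have : chm k f n c - bd k Y n (chm k f (n + 1) b) =
        (chm k f n c - bd k Y n b') - bd k Y n (chm k f (n + 1) b - b') := by
      rw [map_sub]; abel
    rw [this]
    exact Submodule.sub_mem _ hcb' (bd_mem_spt hbb)

/-- excision -/
lemma RZ.excision (U V : X.Subcomplex) (n : ℕ) : RZ k (U ⊓ V) V n ↔ RZ k U (U ⊔ V) n := by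
  apply RelBij.rz_iff (f := 𝟙 X)
  refine ⟨?_, ?_, ?_, ?_, ?_⟩
  · rw [SSet.Subcomplex.preimage_id]; exact inf_le_left
  · rw [SSet.Subcomplex.preimage_id]; exact le_sup_right
  · intro n x hx hx'
    exact ⟨hx', hx⟩
  · intro n x y _ _ _ _ h
    exact h
  · intro n y hy hyU
    refine ⟨y, ?_, rfl⟩
    rcases hy with h | h
    · exact absurd h hyU
    · exact h

end

end Vale.Agent.P263.GEN
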